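import Mathlib
import Vale.Agent.H23.FrameBuild

/-!
The Lipman-Zariski property for normal abelian covers of affine space.
-/

namespace Vale.Agent.Results.P266.AbelianCover

theorem result {A : Type*} [CommRing A] [IsDomain A] [IsIntegrallyClosed A] [Algebra ℂ A]
    [Algebra.FiniteType ℂ A] {G : Type*} [CommGroup G] [Finite G] [MulSemiringAction G A]
    [SMulCommClass G ℂ A] (n : ℕ)
    (e : FixedPoints.subalgebra ℂ A G ≃ₐ[ℂ] MvPolynomial (Fin n) ℂ)
    (hT : Module.Projective A (Derivation ℂ A A)) (m : Ideal A) [m.IsMaximal] :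
    IsRegularLocalRing (Localization.AtPrime m) := by
  let _ : Fintype G := Fintype.ofFinite G
  have hnoeth : IsNoetherianRing A := Algebra.FiniteType.isNoetherianRing ℂ A
  let φ : MvPolynomial (Fin n) ℂ →ₐ[ℂ] A := (FixedPoints.subalgebra ℂ A G).val.comp e.symm.toAlgHom
  have hφ : ∀ s, φ s = (e.symm s : A) := fun s => rfl
  let _ : Algebra (MvPolynomial (Fin n) ℂ) A := φ.toRingHom.toAlgebra
  have halg : ∀ s : MvPolynomial (Fin n) ℂ, algebraMap (MvPolynomial (Fin n) ℂ) A s = φ s :=
    fun s => rfl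
  have hst : IsScalarTower ℂ (MvPolynomial (Fin n) ℂ) A := by
    apply IsScalarTower.of_algebraMap_eq
    intro r
    rw [halg, AlgHom.commutes]
  have hinj : Function.Injective (algebraMap (MvPolynomial (Fin n) ℂ) A) := by
    intro s t hst
    rw [halg, halg, hφ, hφ] at hst
    exact e.symm.injective (Subtype.ext hst)
  have hfaith : FaithfulSMul (MvPolynomial (Fin n) ℂ) A :=
    (faithfulSMul_iff_algebraMap_injective _ _).mpr hinj
  have hcomm : SMulCommClass G (MvPolynomial (Fin n) ℂ) A := by
    refine ⟨fun g s a => ?_⟩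
    rw [Algebra.smul_def, Algebra.smul_def, smul_mul']
    congr 1
    exact (e.symm s).2 g
  have hinv : Algebra.IsInvariant (MvPolynomial (Fin n) ℂ) A G := by
    refine ⟨fun b hb => ?_⟩
    refine ⟨e ⟨b, hb⟩, ?_⟩
    rw [halg, hφ, AlgEquiv.symm_apply_apply]
  exact Vale.Agent.H23.regular_at_maximal n G hT m

end Vale.Agent.Results.P266.AbelianCover
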